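import Vale.Agent.P088.H198.K.Defs

/-!
# P088, data on a patch of the boundary of a smooth bounded domain, the pairs agree near the rest of
the boundary: the data on the whole boundary agree. Definitions and rows.
-/

open MeasureTheory Set
open scoped ContDiff Matrix

noncomputable section

namespace Vale.Agent.P088.LR.P

open Vale.Agent.P088.LR Vale.Agent.P088.LR.B Vale.Agent.P088.LR.U

variable {n N : ℕ}

/-- The Dirichlet problem is solvable in smooth functions (true for a smooth bounded domain). -/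
def Slv (Ω : Set (V n)) (g : MF n) (A : Cn n N) : Prop :=
  ∀ f : V n → Fin N → ℂ, ContDiff ℝ ∞ f → ∃ u, Hr Ω g A f u

/-- The data of `(g₁, A₁)` and `(g₂, A₂)` on the patch `∂Ω ∩ G` are equal: `f`, `h` supported in
`G`. -/
def SDP (G Ω : Set (V n)) (g₁ : MF n) (A₁ : Cn n N) (g₂ : MF n) (A₂ : Cn n N) : Prop :=
  ∀ f h : V n → Fin N → ℂ, ContDiff ℝ ∞ f → ContDiff ℝ ∞ h → tsupport f ⊆ G → tsupport h ⊆ G →
    ∃ u v u' v', Hr Ω g₁ A₁ f u ∧ Hr Ω g₁ A₁ h v ∧ Hr Ω g₂ A₂ f u' ∧ Hr Ω g₂ A₂ h v' ∧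
      en Ω g₁ A₁ u v = en Ω g₂ A₂ u' v'

/-- Every boundary point outside the patch has a neighbourhood `O`, `O ∩ Ω` connected, which meets
the patch, and the pairs agree on `O ∩ Ω`. -/
def Acc (ρ : V n → ℝ) (G : Set (V n)) (g₁ : MF n) (A₁ : Cn n N) (g₂ : MF n) (A₂ : Cn n N) :
    Prop :=
  ∀ p, ρ p = 0 → p ∉ G → ∃ O : Set (V n), IsOpen O ∧ p ∈ O ∧ IsPreconnected (O ∩ Om ρ) ∧
    (∃ q ∈ O ∩ G, ρ q = 0) ∧ ∀ x ∈ O ∩ Om ρ, g₂ x = g₁ x ∧ ∀ i, A₂ i x = A₁ i x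

/-- (P_UI) interior unique continuation, from `EYM.ucpV` (`Bdl/B12`), translation and the linear
isomorphism with `EuclideanSpace`; `n = 0` is trivial. -/
def RowUI : Prop := ∀ {n N : ℕ} (s : MF n) (A : Cn n N), SmM s → (∀ x, (s x).PosDef) → SmU A →
  ∀ D : Set (V n), IsOpen D → IsPreconnected D → ∀ w : V n → Fin N → ℂ, ContDiff ℝ ∞ w →
  (∀ x ∈ D, lav s A w x = 0) → ∀ U : Set (V n), IsOpen U → U ⊆ D → U.Nonempty →
  (∀ x ∈ U, w x = 0) → ∀ x ∈ D, w x = 0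

/-- (P_VN) zero Cauchy data and the equation on one side: all orders vanish (for every cut-off `χ`
supported in `O`), by induction on `m`: `χ' w = ρ^m h'`, the equation gives
`m (m - 1) s(∇ρ, ∇ρ) h' = 0` on `{ρ = 0}` near the support of `χ`; `BHad.had`. -/
def RowVN : Prop := ∀ {n N : ℕ} (ρ : V n → ℝ), ContDiff ℝ ∞ ρ →
  (∀ x, ρ x = 0 → fderiv ℝ ρ x ≠ 0) → ∀ (s : MF n) (A : Cn n N), SmM s → (∀ x, (s x).PosDef) →
  SmU A → ∀ O : Set (V n), IsOpen O → ∀ w : V n → Fin N → ℂ, ContDiff ℝ ∞ w →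
  (∀ x ∈ O, 0 < ρ x → lav s A w x = 0) → (∀ x ∈ O, ρ x = 0 → w x = 0 ∧ ∀ i, pd i w x = 0) →
  ∀ χ : V n → ℝ, ContDiff ℝ ∞ χ → tsupport χ ⊆ O → ∀ m : ℕ, ∃ h : V n → Fin N → ℂ,
    ContDiff ℝ ∞ h ∧ ∀ x, χ x • w x = (ρ x ^ m) • h x

/-- (P_UB) unique continuation from the boundary; from UI, VN and the extension by zero
(`H292/BExt`, only smoothness is needed). -/
def RowUB : Prop := ∀ {n N : ℕ} (ρ : V n → ℝ), ContDiff ℝ ∞ ρ →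
  (∀ x, ρ x = 0 → fderiv ℝ ρ x ≠ 0) → ∀ (s : MF n) (A : Cn n N), SmM s → (∀ x, (s x).PosDef) →
  SmU A → ∀ O : Set (V n), IsOpen O → ∀ w : V n → Fin N → ℂ, ContDiff ℝ ∞ w →
  (∀ x ∈ O, 0 < ρ x → lav s A w x = 0) → (∀ x ∈ O, ρ x = 0 → w x = 0 ∧ ∀ i, pd i w x = 0) →
  ∀ q ∈ O, ρ q = 0 → ∃ B : Set (V n), IsOpen B ∧ q ∈ B ∧ ∀ x ∈ B, 0 < ρ x → w x = 0

/-- (P_FL) zero Dirichlet values and the weak equation with test functions supported in the open set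
`G`: zero Cauchy data (as in `H924/BDivx`). -/
def RowFL : Prop := ∀ {n N : ℕ} (ρ : V n → ℝ), SDom ρ → ∀ (s : MF n) (A : Cn n N), SmM s →
  (∀ x, (s x).PosDef) → SmU A → ∀ w : V n → Fin N → ℂ, ContDiff ℝ ∞ w → ∀ G : Set (V n),
  IsOpen G → (∀ x ∈ G, ρ x = 0 → w x = 0) →
  (∀ φ : V n → Fin N → ℂ, ContDiff ℝ ∞ φ → tsupport φ ⊆ G → ea (Om ρ) s A w φ = 0) →
  ∀ x ∈ G, ρ x = 0 → ∀ i, pd i w x = 0

/-- (P_CUT) two solutions with the same Dirichlet values on the whole boundary and the same Neumann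
data on the patch have the same Neumann data on the whole boundary; from UI, UB, FL and
cut-offs. -/
def RowCUT : Prop := ∀ {n N : ℕ} (ρ : V n → ℝ), SDom ρ → ∀ (g₁ g₂ : MF n) (A₁ A₂ : Cn n N),
  SmM g₁ → SmM g₂ → (∀ x, (g₁ x).PosDef) → (∀ x, (g₂ x).PosDef) → SmU A₁ → SmU A₂ →
  ∀ G : Set (V n), IsOpen G → Acc ρ G g₁ A₁ g₂ A₂ → ∀ f u u' : V n → Fin N → ℂ,
  Hr (Om ρ) g₁ A₁ f u → Hr (Om ρ) g₂ A₂ f u' →
  (∀ φ : V n → Fin N → ℂ, ContDiff ℝ ∞ φ → tsupport φ ⊆ G →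
    en (Om ρ) g₁ A₁ u φ = en (Om ρ) g₂ A₂ u' φ) →
  ∀ φ : V n → Fin N → ℂ, ContDiff ℝ ∞ φ → en (Om ρ) g₁ A₁ u φ = en (Om ρ) g₂ A₂ u' φ

/-- (P_TOP) **from the patch to the whole boundary**; from CUT and symmetry. -/
def RowTOP : Prop := ∀ {n N : ℕ} (ρ : V n → ℝ), SDom ρ → ∀ (g₁ g₂ : MF n) (A₁ A₂ : Cn n N),
  SmM g₁ → SmM g₂ → (∀ x, (g₁ x).PosDef) → (∀ x, (g₂ x).PosDef) → SmU A₁ → SmU A₂ →
  ∀ G : Set (V n), IsOpen G → Acc ρ G g₁ A₁ g₂ A₂ → Slv (Om ρ) g₁ A₁ → Slv (Om ρ) g₂ A₂ →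
  SDP G (Om ρ) g₁ A₁ g₂ A₂ → SDU (Om ρ) g₁ A₁ g₂ A₂

end Vale.Agent.P088.LR.P
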