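import Vale.Agent.P088.H924.P.Top

/-!
# P088: from the patch to the whole boundary; unique continuation and cut-offs
-/

open MeasureTheory Set Filter Topology
open scoped ContDiff Matrix Manifold

noncomputable section

namespace Vale.Agent.P088.H924.P

open Vale.Agent.P088.LR Vale.Agent.P088.LR.B Vale.Agent.P088.LR.U Vale.Agent.P088.LR.P

variable {n N : ℕ}

/-- A point of `{ρ = 0}` is in the closure of `{ρ > 0}`. -/
theorem cl_pos {ρ : V n → ℝ} (hs : ContDiff ℝ ∞ ρ) (hnz : ∀ x, ρ x = 0 → fderiv ℝ ρ x ≠ 0)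
    {x : V n} (hx : ρ x = 0) : x ∈ closure (Om ρ) := by
  obtain ⟨v, hv⟩ : ∃ v, 0 < fderiv ℝ ρ x v := by
    by_contra hcon
    push Not at hcon
    apply hnz x hx
    ext v
    have h1 := hcon v
    have h2 := hcon (-v)
    rw [map_neg] at h2
    rw [zero_apply]
    linarith
  have hd : HasFDerivAt ρ (fderiv ℝ ρ x) (x + (0 : ℝ) • v) := by
    rw [zero_smul, add_zero]
    exact ((hs.differentiable (by simp)) x).hasFDerivAt
  have hl : HasDerivAt (fun t : ℝ => x + t • v) v 0 := by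
    simpa using ((hasDerivAt_id (0 : ℝ)).smul_const v).const_add x
  have hc : HasDerivAt (fun t : ℝ => ρ (x + t • v)) (fderiv ℝ ρ x v) 0 :=
    hd.comp_hasDerivAt (0 : ℝ) hl
  have h3 := eventually_nhdsWithin_sign_eq_of_deriv_pos (f := fun t : ℝ => ρ (x + t • v))
    (x₀ := 0) (by rw [hc.deriv]; exact hv) (by simp [hx])
  have h3' : ∀ᶠ t in 𝓝 (0 : ℝ), SignType.sign (ρ (x + t • v)) = SignType.sign t := by
    simpa using h3
  have htl : Tendsto (fun t : ℝ => x + t • v) (𝓝 0) (𝓝 x) := by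
    have h : Continuous (fun t : ℝ => x + t • v) := by fun_prop
    simpa using h.tendsto 0
  rw [mem_closure_iff_frequently]
  refine htl.frequently ?_
  have h1 : ∃ᶠ t in 𝓝 (0 : ℝ), (0 : ℝ) < t := by
    have : (0 : ℝ) ∈ closure (Ioi (0 : ℝ)) := by rw [closure_Ioi]; exact self_mem_Ici
    exact mem_closure_iff_frequently.1 this
  refine (h1.and_eventually h3').mono fun t ht => ?_
  show 0 < ρ (x + t • v)
  rw [← sign_eq_one_iff, ht.2, sign_eq_one_iff]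
  exact ht.1

/-- The frontier of the domain. -/
theorem fr_iff {ρ : V n → ℝ} (hs : ContDiff ℝ ∞ ρ) (hnz : ∀ x, ρ x = 0 → fderiv ℝ ρ x ≠ 0)
    (x : V n) : x ∈ frontier (Om ρ) ↔ ρ x = 0 := by
  have hO : IsOpen (Om ρ) := isOpen_lt continuous_const hs.continuous
  rw [hO.frontier_eq]
  refine ⟨fun h => ?_, fun h => ⟨cl_pos hs hnz h, fun h' => ?_⟩⟩
  · have h1 : closure (Om ρ) ⊆ {x | 0 ≤ ρ x} :=
      closure_minimal (fun y (hy : 0 < ρ y) => (show 0 ≤ ρ y from hy.le))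
        (isClosed_le continuous_const hs.continuous)
    have h2 : 0 ≤ ρ x := h1 h.1
    have h3 : ¬ 0 < ρ x := h.2
    exact le_antisymm (not_lt.1 h3) h2
  · have h'' : 0 < ρ x := h'
    rw [h] at h''
    exact lt_irrefl _ h''

/-- A smooth cut-off. -/
theorem ex_cut {K W : Set (V n)} (hK : IsClosed K) (hW : IsOpen W) (hKW : K ⊆ W) :
    ∃ (χ : V n → ℝ) (O : Set (V n)), ContDiff ℝ ∞ χ ∧ tsupport χ ⊆ W ∧ IsOpen O ∧ K ⊆ O ∧
      ∀ x ∈ O, χ x = 1 := by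
  obtain ⟨O, hO, hKO, hOc⟩ := normal_exists_closure_subset hK hW hKW
  obtain ⟨W₁, hW₁, hNW₁, hW₁c⟩ := normal_exists_closure_subset isClosed_closure hW hOc
  obtain ⟨f, hf0, hf1, -⟩ := exists_contMDiffMap_zero_one_of_isClosed 𝓘(ℝ, V n) (n := (⊤ : ℕ∞))
    (s := W₁ᶜ) (t := closure O) hW₁.isClosed_compl isClosed_closure
    (disjoint_compl_left_iff_subset.2 hNW₁)
  refine ⟨f, O, f.contMDiff.contDiff, ?_, hO, hKO, fun x hx => hf1 (subset_closure hx)⟩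
  refine (closure_mono ?_).trans hW₁c
  intro x hx
  by_contra h
  exact hx (hf0 h)

theorem pd_off {F : Type*} [NormedAddCommGroup F] [NormedSpace ℝ F] {φ : V n → F} {x : V n}
    (hx : x ∉ tsupport φ) (i : Fin n) : pd i φ x = 0 := by
  have h : φ =ᶠ[𝓝 x] fun _ => 0 := notMem_tsupport_iff_eventuallyEq.1 hx
  unfold pd
  rw [h.fderiv_eq]
  simp

theorem cd_off {A : Cn n N} {φ : V n → Fin N → ℂ} {x : V n} (hx : x ∉ tsupport φ) (i : Fin n) :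
    cd A i φ x = 0 := by
  unfold cd
  rw [pd_off hx, image_eq_zero_of_notMem_tsupport hx, Matrix.mulVec_zero, add_zero]

/-- If the pairs and the sections agree on `W ∩ Ω`, the energies with a test section supported in
`W` agree. -/
theorem en_loc {Ω W : Set (V n)} (hO : IsOpen Ω) (hW : IsOpen W) {g₁ g₂ : MF n} {A₁ A₂ : Cn n N}
    {u u' φ : V n → Fin N → ℂ}
    (h : ∀ x ∈ W ∩ Ω, g₂ x = g₁ x ∧ (∀ i, A₂ i x = A₁ i x) ∧ u x = u' x) (hφ : tsupport φ ⊆ W) :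
    en Ω g₁ A₁ u φ = en Ω g₂ A₂ u' φ := by
  unfold en
  refine setIntegral_congr_fun hO.measurableSet fun x hx => ?_
  by_cases hxW : x ∈ W
  · have h1 : ∀ i, cd A₁ i u x = cd A₂ i u' x := by
      intro i
      have h2 : u =ᶠ[𝓝 x] u' := by
        filter_upwards [(hW.inter hO).mem_nhds ⟨hxW, hx⟩] with y hy
        exact (h y hy).2.2
      unfold cd pd
      rw [h2.fderiv_eq, (h x ⟨hxW, hx⟩).2.2, (h x ⟨hxW, hx⟩).2.1 i]
    have h3 : ∀ j, cd A₁ j φ x = cd A₂ j φ x := by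
      intro j
      unfold cd
      rw [(h x ⟨hxW, hx⟩).2.1 j]
    have h4 : sg g₁ x = sg g₂ x := by
      unfold sg
      rw [(h x ⟨hxW, hx⟩).1]
    simp only [h1, h3, h4]
  · have h0 : x ∉ tsupport φ := fun hc => hxW (hφ hc)
    simp only [cd_off h0, star_zero, dotProduct_zero, mul_zero, Finset.sum_const_zero]

theorem cd_sub' {A : Cn n N} {u v : V n → Fin N → ℂ} (hu : ContDiff ℝ ∞ u) (hv : ContDiff ℝ ∞ v)
    (i : Fin n) (x : V n) : cd A i (fun y => u y - v y) x = cd A i u x - cd A i v x := by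
  unfold cd pd
  rw [fderiv_fun_sub ((hu.differentiable (by simp)) x) ((hv.differentiable (by simp)) x)]
  rw [_root_.sub_apply, Matrix.mulVec_sub]
  abel

theorem lav_sub' {s : MF n} (hs : SmM s) {A : Cn n N} (hA : SmU A) {u v : V n → Fin N → ℂ}
    (hu : ContDiff ℝ ∞ u) (hv : ContDiff ℝ ∞ v) (x : V n) :
    lav s A (fun y => u y - v y) x = lav s A u x - lav s A v x := by
  have hF : ∀ (u : V n → Fin N → ℂ), ContDiff ℝ ∞ u → ∀ i,
      ContDiff ℝ ∞ fun y => ∑ j, (s y i j : ℂ) • cd A j u y := by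
    intro u hu i
    refine ContDiff.sum fun j _ => ?_
    exact (Complex.ofRealCLM.contDiff.comp (hs i j)).smul (H158.contDiff_cd hA hu j)
  unfold lav
  rw [← Finset.sum_sub_distrib]
  refine Finset.sum_congr rfl fun i _ => ?_
  rw [← cd_sub' (hF u hu i) (hF v hv i)]
  congr 1
  funext y
  rw [← Finset.sum_sub_distrib]
  refine Finset.sum_congr rfl fun j _ => ?_
  rw [cd_sub' hu hv, smul_sub]

theorem lav_congr' {O : Set (V n)} (hO : IsOpen O) {s t : MF n} {A' A : Cn n N}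
    (h : ∀ x ∈ O, s x = t x) (hA : ∀ i, ∀ x ∈ O, A' i x = A i x) (u : V n → Fin N → ℂ) {x : V n}
    (hx : x ∈ O) : lav s A' u x = lav t A u x := by
  have h1 : ∀ i, ∀ y ∈ O, cd A' i u y = cd A i u y := by
    intro i y hy
    unfold cd
    rw [hA i y hy]
  unfold lav
  refine Finset.sum_congr rfl fun i _ => ?_
  have h2 : ∀ y ∈ O, (∑ j, (s y i j : ℂ) • cd A' j u y) = ∑ j, (t y i j : ℂ) • cd A j u y := by
    intro y hy
    refine Finset.sum_congr rfl fun j _ => ?_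
    rw [h y hy, h1 j y hy]
  have h3 : (fun y => ∑ j, (s y i j : ℂ) • cd A' j u y) =ᶠ[𝓝 x]
      fun y => ∑ j, (t y i j : ℂ) • cd A j u y := by
    filter_upwards [hO.mem_nhds hx] with y hy
    exact h2 y hy
  show fderiv ℝ (fun y => ∑ j, (s y i j : ℂ) • cd A' j u y) x (Pi.single i 1) +
    A' i x *ᵥ (∑ j, (s x i j : ℂ) • cd A' j u x) =
    fderiv ℝ (fun y => ∑ j, (t y i j : ℂ) • cd A j u y) x (Pi.single i 1)
      + A i x *ᵥ (∑ j, (t x i j : ℂ) • cd A j u x)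
  rw [h3.fderiv_eq, h2 x hx, hA i x hx]

/-- **P_CUT** -/
theorem cut (hUI : LR.P.RowUI) (hUB : LR.P.RowUB) (hFL : LR.P.RowFL) : LR.P.RowCUT := by
  intro n N ρ hρ g₁ g₂ A₁ A₂ hg₁ hg₂ hp₁ hp₂ hA₁ hA₂ G hG hAcc f u u' hu hu' hT φ hφ
  have hO : IsOpen (Om ρ) := isOpen_lt continuous_const hρ.sm.continuous
  have hb : Bornology.IsBounded (Om ρ) :=
    hρ.bd.subset fun x (hx : 0 < ρ x) => (show 0 ≤ ρ x from hx.le)
  have hs₁ := H833.smM_sg hg₁ hp₁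
  have hs₂ := H833.smM_sg hg₂ hp₂
  have hsp₁ : ∀ x, (sg g₁ x).PosDef := fun x => H158.posDef_sg hp₁ x
  have hy₁ := K.H129.symm_sg g₁ hp₁
  have hy₂ := K.H129.symm_sg g₂ hp₂
  have hfr : ∀ x ∈ frontier (Om ρ), x ∉ Om ρ := fun x hx => by
    rw [hO.frontier_eq] at hx
    exact hx.2
  have l1 : ∀ x ∈ Om ρ, lav (sg g₁) A₁ u x = 0 :=
    H292.UP.lav_of_weak hO hb hs₁ hy₁ hA₁ hu.1 fun φ hφ h0 =>
      hu.2.2 φ hφ fun x hx => h0 x (hfr x hx)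
  have l2 : ∀ x ∈ Om ρ, lav (sg g₂) A₂ u' x = 0 :=
    H292.UP.lav_of_weak hO hb hs₂ hy₂ hA₂ hu'.1 fun φ hφ h0 =>
      hu'.2.2 φ hφ fun x hx => h0 x (hfr x hx)
  have hw0 : ∀ x, ρ x = 0 → u x = u' x := fun x hx => by
    rw [hu.2.1 x ((fr_iff hρ.sm hρ.nz x).2 hx), hu'.2.1 x ((fr_iff hρ.sm hρ.nz x).2 hx)]
  have key : ∀ p, ρ p = 0 → p ∉ G → ∃ O : Set (V n), IsOpen O ∧ p ∈ O ∧
      ∀ x ∈ O ∩ Om ρ, g₂ x = g₁ x ∧ (∀ i, A₂ i x = A₁ i x) ∧ u x = u' x := by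
    intro p hp hpG
    obtain ⟨O, hOo, hpO, hOc, ⟨q, ⟨hqO, hqG⟩, hq⟩, hOa⟩ := hAcc p hp hpG
    refine ⟨O, hOo, hpO, fun x hx => ⟨(hOa x hx).1, (hOa x hx).2, ?_⟩⟩
    have hw : ContDiff ℝ ∞ (fun x => u x - u' x) := hu.1.sub hu'.1
    have hlw : ∀ x ∈ O ∩ Om ρ, lav (sg g₁) A₁ (fun x => u x - u' x) x = 0 := by
      intro x hx
      have h1 : lav (sg g₁) A₁ u' x = lav (sg g₂) A₂ u' x :=
        lav_congr' (hOo.inter hO) (fun y hy => by unfold sg; rw [(hOa y hy).1])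
          (fun i y hy => ((hOa y hy).2 i).symm) u' hx
      rw [lav_sub' hs₁ hA₁ hu.1 hu'.1, l1 x hx.2, h1, l2 x hx.2, sub_zero]
    have hcd : ∀ x ∈ O ∩ G, ρ x = 0 → ∀ i, pd i (fun x => u x - u' x) x = 0 := by
      refine hFL ρ hρ (sg g₁) A₁ hs₁ hsp₁ hA₁ (fun x => u x - u' x) hw (O ∩ G) (hOo.inter hG)
        (fun x _ hx => sub_eq_zero.2 (hw0 x hx)) ?_
      intro ψ hψ hψs
      rw [U.H129.ea_sub_left hb hs₁ hA₁ hu.1 hu'.1 hψ]
      have e1 : ea (Om ρ) (sg g₁) A₁ u' ψ = ea (Om ρ) (sg g₂) A₂ u' ψ :=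
        en_loc hO hOo (fun x hx => ⟨(hOa x hx).1, (hOa x hx).2, rfl⟩)
          (hψs.trans inter_subset_left)
      have e2 : ea (Om ρ) (sg g₁) A₁ u ψ = ea (Om ρ) (sg g₂) A₂ u' ψ :=
        hT ψ hψ (hψs.trans inter_subset_right)
      rw [e1, e2, sub_self]
    obtain ⟨B, hB, hqB, hBw⟩ := hUB ρ hρ.sm hρ.nz (sg g₁) A₁ hs₁ hsp₁ hA₁ (O ∩ G)
      (hOo.inter hG) (fun x => u x - u' x) hw (fun x hx hx' => hlw x ⟨hx.1, hx'⟩)
      (fun x hx hx0 => ⟨sub_eq_zero.2 (hw0 x hx0), hcd x hx hx0⟩) q ⟨hqO, hqG⟩ hq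
    have hne : (B ∩ (O ∩ Om ρ)).Nonempty := by
      have h1 := cl_pos hρ.sm hρ.nz hq
      rw [mem_closure_iff] at h1
      obtain ⟨y, hy, hy'⟩ := h1 (B ∩ O) (hB.inter hOo) ⟨hqB, hqO⟩
      exact ⟨y, hy.1, hy.2, hy'⟩
    have h3 := hUI (sg g₁) A₁ hs₁ hsp₁ hA₁ (O ∩ Om ρ) (hOo.inter hO) hOc
      (fun x => u x - u' x) hw hlw (B ∩ (O ∩ Om ρ)) (hB.inter (hOo.inter hO))
      inter_subset_right hne (fun y hy => hBw y hy.1 hy.2.2) x hx
    exact sub_eq_zero.1 h3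
  -- the set where everything agrees
  obtain ⟨W, hW, hKW, hWa⟩ : ∃ W : Set (V n), IsOpen W ∧ {x | ρ x = 0} \ G ⊆ W ∧
      ∀ x ∈ W ∩ Om ρ, g₂ x = g₁ x ∧ (∀ i, A₂ i x = A₁ i x) ∧ u x = u' x := by
    refine ⟨⋃₀ {O | IsOpen O ∧ ∀ x ∈ O ∩ Om ρ, g₂ x = g₁ x ∧ (∀ i, A₂ i x = A₁ i x) ∧
      u x = u' x}, isOpen_sUnion fun O h => h.1, fun p hp => ?_, fun x hx => ?_⟩
    · obtain ⟨O, h1, h2, h3⟩ := key p hp.1 hp.2
      exact ⟨O, ⟨h1, h3⟩, h2⟩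
    · obtain ⟨⟨O, h1, h2⟩, h3⟩ := hx
      exact h1.2 x ⟨h2, h3⟩
  have hZ : IsClosed {x | ρ x = 0} := isClosed_eq hρ.sm.continuous continuous_const
  obtain ⟨χ, O₀, hχ, hχs, hO₀, hKO, hχ1⟩ := ex_cut (hZ.sdiff hG) hW hKW
  have hK₁ : {x | ρ x = 0} \ O₀ ⊆ G := by
    intro x hx
    by_contra hc
    exact hx.2 (hKO ⟨hx.1, hc⟩)
  obtain ⟨θ, O₁, hθ, hθs, hO₁, hKO₁, hθ1⟩ := ex_cut (hZ.sdiff hO₀) hG hK₁
  have c1 : ContDiff ℝ ∞ fun x => χ x • φ x := hχ.smul hφ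
  have c2 : ContDiff ℝ ∞ fun x => θ x • ((1 - χ x) • φ x) :=
    hθ.smul ((contDiff_const.sub hχ).smul hφ)
  have t1 : en (Om ρ) g₁ A₁ u (fun x => χ x • φ x) = en (Om ρ) g₂ A₂ u' fun x => χ x • φ x :=
    en_loc hO hW hWa ((tsupport_smul_subset_left χ φ).trans hχs)
  have t2 := hT (fun x => θ x • ((1 - χ x) • φ x)) c2
    ((tsupport_smul_subset_left θ fun x => (1 - χ x) • φ x).trans hθs)
  have hz : ∀ x ∈ frontier (Om ρ), φ x - χ x • φ x - θ x • ((1 - χ x) • φ x) = 0 := by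
    intro x hx
    have hx0 : ρ x = 0 := (fr_iff hρ.sm hρ.nz x).1 hx
    by_cases h : x ∈ O₀
    · rw [hχ1 x h, one_smul, sub_self, sub_self, zero_smul, smul_zero, sub_zero]
    · rw [hθ1 x (hKO₁ ⟨hx0, h⟩), one_smul, sub_smul, one_smul]
      abel
  have e1 := hu.2.2 (fun x => φ x - χ x • φ x - θ x • ((1 - χ x) • φ x))
    ((hφ.sub c1).sub c2) hz
  have e2 := hu'.2.2 (fun x => φ x - χ x • φ x - θ x • ((1 - χ x) • φ x))
    ((hφ.sub c1).sub c2) hz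
  rw [en_sub_right hb hg₁ hp₁ hA₁ hu.1 (hφ.sub c1) c2, en_sub_right hb hg₁ hp₁ hA₁ hu.1 hφ c1] at e1
  rw [en_sub_right hb hg₂ hp₂ hA₂ hu'.1 (hφ.sub c1) c2,
    en_sub_right hb hg₂ hp₂ hA₂ hu'.1 hφ c1] at e2
  linear_combination e1 - e2 + t1 + t2

end Vale.Agent.P088.H924.P
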