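import Vale.Agent.P088.H924.P.Defs
import Vale.Agent.P088.H129.KDat

/-!
# P088: from the patch to the whole boundary; symmetry
-/

open MeasureTheory Set
open scoped ContDiff Matrix

noncomputable section

namespace Vale.Agent.P088.H924.P

open Vale.Agent.P088.LR Vale.Agent.P088.LR.B Vale.Agent.P088.LR.U Vale.Agent.P088.LR.P

variable {n N : ℕ}

/-- Bilinearity, second argument. -/
theorem en_sub_right {Ω : Set (V n)} (hb : Bornology.IsBounded Ω) {g : MF n} (hg : SmM g)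
    (hp : ∀ x, (g x).PosDef) {A : Cn n N} (hA : SmU A) {u v v' : V n → Fin N → ℂ}
    (hu : ContDiff ℝ ∞ u) (hv : ContDiff ℝ ∞ v) (hv' : ContDiff ℝ ∞ v') :
    en Ω g A u (fun x => v x - v' x) = en Ω g A u v - en Ω g A u v' :=
  U.H129.ea_sub_right hb (H833.smM_sg hg hp) hA hu hv hv'

theorem en_star (Ω : Set (V n)) {g : MF n} (hp : ∀ x, (g x).PosDef) (A : Cn n N)
    (u v : V n → Fin N → ℂ) : en Ω g A u v = star (en Ω g A v u) :=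
  H106.ea_star Ω (K.H129.symm_sg g hp) A u v

/-- The energy of a solution with a test section depends on the boundary values of the latter. -/
theorem en_congr {Ω : Set (V n)} (hb : Bornology.IsBounded Ω) {g : MF n} (hg : SmM g)
    (hp : ∀ x, (g x).PosDef) {A : Cn n N} (hA : SmU A) {f u v v' : V n → Fin N → ℂ}
    (hu : Hr Ω g A f u) (hv : ContDiff ℝ ∞ v) (hv' : ContDiff ℝ ∞ v')
    (h : ∀ x ∈ frontier Ω, v x = v' x) : en Ω g A u v = en Ω g A u v' := by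
  have h1 := hu.2.2 (fun x => v x - v' x) (hv.sub hv') fun x hx => by
    rw [h x hx, sub_self]
  rw [en_sub_right hb hg hp hA hu.1 hv hv'] at h1
  exact sub_eq_zero.1 h1

/-- **P_TOP** -/
theorem top (hC : LR.P.RowCUT) : LR.P.RowTOP := by
  intro n N ρ hρ g₁ g₂ A₁ A₂ hg₁ hg₂ hp₁ hp₂ hA₁ hA₂ G hG hAcc hS₁ hS₂ hD
  have hb : Bornology.IsBounded (Om ρ) :=
    hρ.bd.subset fun x (hx : 0 < ρ x) => (show 0 ≤ ρ x from hx.le)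
  -- Step 1: `f` supported in the patch, any test section
  have h1 : ∀ f : V n → Fin N → ℂ, ContDiff ℝ ∞ f → tsupport f ⊆ G → ∀ u u',
      Hr (Om ρ) g₁ A₁ f u → Hr (Om ρ) g₂ A₂ f u' → ∀ φ : V n → Fin N → ℂ, ContDiff ℝ ∞ φ →
      en (Om ρ) g₁ A₁ u φ = en (Om ρ) g₂ A₂ u' φ := by
    intro f hf hfG u u' hu hu'
    refine hC ρ hρ g₁ g₂ A₁ A₂ hg₁ hg₂ hp₁ hp₂ hA₁ hA₂ G hG hAcc f u u' hu hu' ?_
    intro φ hφ hφG
    obtain ⟨a, b, a', b', ha, hb₁, ha', hb₂, he⟩ := hD f φ hf hφ hfG hφG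
    have e1 : en (Om ρ) g₁ A₁ u φ = en (Om ρ) g₁ A₁ u b :=
      en_congr hb hg₁ hp₁ hA₁ hu hφ hb₁.1 fun x hx => (hb₁.2.1 x hx).symm
    have e2 : en (Om ρ) g₁ A₁ u b = en (Om ρ) g₁ A₁ a b := by
      rw [en_star _ hp₁, en_star (Om ρ) hp₁ A₁ a b,
        en_congr hb hg₁ hp₁ hA₁ hb₁ hu.1 ha.1 fun x hx => by rw [hu.2.1 x hx, ha.2.1 x hx]]
    have e3 : en (Om ρ) g₂ A₂ u' φ = en (Om ρ) g₂ A₂ u' b' :=
      en_congr hb hg₂ hp₂ hA₂ hu' hφ hb₂.1 fun x hx => (hb₂.2.1 x hx).symm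
    have e4 : en (Om ρ) g₂ A₂ u' b' = en (Om ρ) g₂ A₂ a' b' := by
      rw [en_star _ hp₂, en_star (Om ρ) hp₂ A₂ a' b',
        en_congr hb hg₂ hp₂ hA₂ hb₂ hu'.1 ha'.1 fun x hx => by rw [hu'.2.1 x hx, ha'.2.1 x hx]]
    rw [e1, e2, he, e3, e4]
  -- Step 2: `h` arbitrary, test sections supported in the patch
  have h2 : ∀ h v v', Hr (Om ρ) g₁ A₁ h v → Hr (Om ρ) g₂ A₂ h v' →
      ∀ φ : V n → Fin N → ℂ, ContDiff ℝ ∞ φ → tsupport φ ⊆ G →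
      en (Om ρ) g₁ A₁ v φ = en (Om ρ) g₂ A₂ v' φ := by
    intro h v v' hv hv' φ hφ hφG
    obtain ⟨a, ha⟩ := hS₁ φ hφ
    obtain ⟨a', ha'⟩ := hS₂ φ hφ
    have e1 : en (Om ρ) g₁ A₁ v φ = en (Om ρ) g₁ A₁ v a :=
      en_congr hb hg₁ hp₁ hA₁ hv hφ ha.1 fun x hx => (ha.2.1 x hx).symm
    have e2 : en (Om ρ) g₂ A₂ v' φ = en (Om ρ) g₂ A₂ v' a' :=
      en_congr hb hg₂ hp₂ hA₂ hv' hφ ha'.1 fun x hx => (ha'.2.1 x hx).symm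
    have e3 : en (Om ρ) g₂ A₂ a' v = en (Om ρ) g₂ A₂ a' v' :=
      en_congr hb hg₂ hp₂ hA₂ ha' hv.1 hv'.1 fun x hx => by rw [hv.2.1 x hx, hv'.2.1 x hx]
    rw [e1, e2, en_star _ hp₁, en_star (Om ρ) hp₂ A₂ v' a', h1 φ hφ hφG a a' ha ha' v hv.1, e3]
  -- Step 3: all test sections
  have h3 : ∀ h v v', Hr (Om ρ) g₁ A₁ h v → Hr (Om ρ) g₂ A₂ h v' →
      ∀ φ : V n → Fin N → ℂ, ContDiff ℝ ∞ φ →
      en (Om ρ) g₁ A₁ v φ = en (Om ρ) g₂ A₂ v' φ := fun h v v' hv hv' =>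
    hC ρ hρ g₁ g₂ A₁ A₂ hg₁ hg₂ hp₁ hp₂ hA₁ hA₂ G hG hAcc h v v' hv hv' (h2 h v v' hv hv')
  intro f h hf hh
  obtain ⟨u, hu⟩ := hS₁ f hf
  obtain ⟨v, hv⟩ := hS₁ h hh
  obtain ⟨u', hu'⟩ := hS₂ f hf
  obtain ⟨v', hv'⟩ := hS₂ h hh
  refine ⟨u, v, u', v', hu, hv, hu', hv', ?_⟩
  rw [h3 f u u' hu hu' v hv.1]
  exact en_congr hb hg₂ hp₂ hA₂ hu' hv.1 hv'.1 fun x hx => by rw [hv.2.1 x hx, hv'.2.1 x hx]

end Vale.Agent.P088.H924.P
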