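import Vale.Agent.P088.H924.P.Cut
import Vale.Agent.P088.H72.P.Fl
import Vale.Agent.P088.H991.UB
import Vale.Agent.P088.H991.SDG
import Vale.Agent.P088.H188.PUi
import Vale.Agent.P088.H231.VN

/-!
# P088: equal data on a patch of the boundary, pairs equal near the rest of the boundary, imply
equal data on the whole boundary
-/

open MeasureTheory Set
open scoped ContDiff Matrix

noncomputable section

namespace Vale.Agent.P088.H924.P

open Vale.Agent.P088.LR Vale.Agent.P088.LR.B Vale.Agent.P088.LR.U Vale.Agent.P088.LR.P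

/-- Row P_TOP without hypothesis. -/
theorem top_all : LR.P.RowTOP :=
  top (cut H188.PU.ui (LR.H991.ub H188.PU.ui LR.P.H231.vn) LR.P72.fl)

/-- The same with the existence of the solutions in the definition of the data. -/
theorem sdg_sdu {n N : ℕ} (ρ : V n → ℝ) (hρ : SDom ρ) (g₁ g₂ : MF n) (A₁ A₂ : Cn n N)
    (hg₁ : SmM g₁) (hg₂ : SmM g₂) (hp₁ : ∀ x, (g₁ x).PosDef) (hp₂ : ∀ x, (g₂ x).PosDef)
    (hA₁ : SmU A₁) (hA₂ : SmU A₂) (G : Set (V n)) (hG : IsOpen G)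
    (hAcc : LR.P.Acc ρ G g₁ A₁ g₂ A₂) (hD : LR.P.SDG G (Om ρ) g₁ A₁ g₂ A₂) :
    SDU (Om ρ) g₁ A₁ g₂ A₂ := by
  refine top_all ρ hρ g₁ g₂ A₁ A₂ hg₁ hg₂ hp₁ hp₂ hA₁ hA₂ G hG hAcc ?_ ?_ ?_
  · intro f hf
    obtain ⟨u, _, _, _, hu, _⟩ := hD f f hf hf
    exact ⟨u, hu⟩
  · intro f hf
    obtain ⟨_, _, u, _, _, _, hu, _⟩ := hD f f hf hf
    exact ⟨u, hu⟩
  · intro f h hf hh hfG hhG
    obtain ⟨u, v, u', v', h1, h2, h3, h4, he⟩ := hD f h hf hh
    exact ⟨u, v, u', v', h1, h2, h3, h4, he hfG hhG⟩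

end Vale.Agent.P088.H924.P
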